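import Vale.Agent.Lib.P254.Sym.Defs

open MeasureTheory Set

namespace Vale.Agent.Lib.P254

variable {n : ℕ}

/-- Sign change of the coordinate `k`. -/
def signFlip (k : Fin n) (x : Fin n → ℝ) : Fin n → ℝ :=
  Function.update x k (-(x k))

lemma signFlip_self (k : Fin n) (x : Fin n → ℝ) : signFlip k x k = -(x k) := by
  simp [signFlip]

lemma signFlip_ne (k : Fin n) (x : Fin n → ℝ) {j : Fin n} (h : j ≠ k) :
    signFlip k x j = x j := by
  simp [signFlip, h]

lemma signFlip_invol (k : Fin n) : Function.Involutive (signFlip (n := n) k) := by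
  intro x
  funext j
  by_cases h : j = k
  · subst h
    rw [signFlip_self, signFlip_self, neg_neg]
  · rw [signFlip_ne k _ h, signFlip_ne k _ h]

lemma signFlip_mp (k : Fin n) :
    MeasurePreserving (signFlip (n := n) k) volume volume := by
  have h := volume_preserving_pi (α' := fun _ : Fin n => ℝ) (β' := fun _ : Fin n => ℝ)
    (f := fun j : Fin n => (if j = k then (fun t : ℝ => -t) else (fun t : ℝ => t)))
    (fun j => by
      by_cases hj : j = k
      · simp only [hj, if_true]
        exact Measure.measurePreserving_neg (volume : Measure ℝ)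
      · simp only [hj, if_false]
        exact MeasurePreserving.id _)
  have heq : signFlip (n := n) k = fun (x : Fin n → ℝ) (j : Fin n) =>
      (if j = k then (fun t : ℝ => -t) else (fun t : ℝ => t)) (x j) := by
    funext x j
    by_cases hj : j = k
    · subst hj
      simp [signFlip]
    · simp [signFlip, hj]
  rw [heq]
  exact h

lemma signFlip_measurableEmbedding (k : Fin n) : MeasurableEmbedding (signFlip (n := n) k) :=
  (MeasurableEquiv.ofInvolutive (signFlip k) (signFlip_invol k)
    (signFlip_mp k).measurable).measurableEmbedding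

/-- A coordinate hyperplane is a Lebesgue null set. -/
lemma volume_coord_zero (k : Fin n) : volume {x : Fin n → ℝ | x k = 0} = 0 := by
  have hsub : {x : Fin n → ℝ | x k = 0}
      ⊆ Set.pi Set.univ (fun j : Fin n => if j = k then ({0} : Set ℝ) else Set.univ) := by
    intro x hx j _
    by_cases hj : j = k
    · subst hj
      simp only [if_true]
      exact hx
    · simp only [hj, if_false]
      exact Set.mem_univ _
  refine measure_mono_null hsub ?_
  rw [volume_pi_pi]
  apply Finset.prod_eq_zero (Finset.mem_univ k)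
  simp

/-- Folding along a coordinate hyperplane: for a measurable set and an integrand that are both
invariant under the sign change of the coordinate `k`, the integral is twice the integral over
the half where that coordinate is nonnegative. -/
lemma setIntegral_fold {S : Set (Fin n → ℝ)} (hS : MeasurableSet S) (k : Fin n)
    (hflip : ∀ x ∈ S, signFlip k x ∈ S) (f : (Fin n → ℝ) → ℝ) (hf : IntegrableOn f S)
    (hfk : ∀ x, f (signFlip k x) = f x) :
    ∫ x in S, f x = 2 * ∫ x in S ∩ {x | 0 ≤ x k}, f x := by
  have hH : MeasurableSet {x : Fin n → ℝ | 0 ≤ x k} :=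
    measurableSet_le measurable_const (measurable_pi_apply k)
  have hN : MeasurableSet {x : Fin n → ℝ | x k < 0} :=
    measurableSet_lt (measurable_pi_apply k) measurable_const
  have hsplit : S = (S ∩ {x | 0 ≤ x k}) ∪ (S ∩ {x | x k < 0}) := by
    ext x
    constructor
    · intro hx
      rcases le_or_gt 0 (x k) with h | h
      · exact Or.inl ⟨hx, h⟩
      · exact Or.inr ⟨hx, h⟩
    · rintro (h | h)
      · exact h.1
      · exact h.1
  have hdisj : Disjoint (S ∩ {x : Fin n → ℝ | 0 ≤ x k}) (S ∩ {x | x k < 0}) := by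
    rw [Set.disjoint_left]
    intro x hx hx'
    have h1 : 0 ≤ x k := hx.2
    have h2 : x k < 0 := hx'.2
    linarith
  have h1 : ∫ x in S, f x
      = (∫ x in S ∩ {x | 0 ≤ x k}, f x) + ∫ x in S ∩ {x | x k < 0}, f x := by
    have h := setIntegral_union hdisj (hS.inter hN) (hf.mono_set inter_subset_left)
      (hf.mono_set inter_subset_left)
    rw [← hsplit] at h
    exact h
  have hpre : signFlip k ⁻¹' (S ∩ {x | 0 < x k}) = S ∩ {x | x k < 0} := by
    ext x
    simp only [mem_preimage, mem_inter_iff, mem_ofPred_eq, signFlip_self]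
    constructor
    · rintro ⟨hx, hpos⟩
      have h := hflip _ hx
      rw [signFlip_invol k x] at h
      exact ⟨h, by linarith⟩
    · rintro ⟨hx, hneg⟩
      exact ⟨hflip x hx, by linarith⟩
  have h2 : ∫ x in S ∩ {x | x k < 0}, f x = ∫ x in S ∩ {x | 0 < x k}, f x := by
    have h := (signFlip_mp k).setIntegral_preimage_emb (signFlip_measurableEmbedding k) f
      (S ∩ {x | 0 < x k})
    rw [hpre] at h
    rw [← h]
    congr 1
    funext x
    rw [hfk]
  have h3 : ∫ x in S ∩ {x | 0 < x k}, f x = ∫ x in S ∩ {x | 0 ≤ x k}, f x := by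
    apply setIntegral_congr_set
    rw [ae_eq_set]
    constructor
    · have hemp : (S ∩ {x : Fin n → ℝ | 0 < x k}) \ (S ∩ {x | 0 ≤ x k}) = ∅ := by
        rw [Set.eq_empty_iff_forall_notMem]
        rintro x ⟨⟨hx, hpos⟩, hnot⟩
        have hpos' : 0 < x k := hpos
        exact hnot ⟨hx, hpos'.le⟩
      rw [hemp, measure_empty]
    · refine measure_mono_null ?_ (volume_coord_zero k)
      rintro x ⟨⟨hx, hnn⟩, hnot⟩
      have hnn' : 0 ≤ x k := hnn
      show x k = 0
      by_contra hne
      exact hnot ⟨hx, lt_of_le_of_ne hnn' (Ne.symm hne)⟩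
  rw [h1, h2, h3]
  ring

/-- Shrinking one coordinate inside a convex set symmetric under the sign change of that
coordinate. -/
lemma update_mem_of_abs_le {K : Set (Fin n → ℝ)} (hc : Convex ℝ K) (k : Fin n)
    (hflip : ∀ x ∈ K, Function.update x k (-(x k)) ∈ K) {x : Fin n → ℝ} (hx : x ∈ K) {t : ℝ}
    (ht : |t| ≤ |x k|) : Function.update x k t ∈ K := by
  by_cases h0 : x k = 0
  · have ht0 : t = 0 := by
      rw [h0, abs_zero] at ht
      exact abs_eq_zero.mp (le_antisymm ht (abs_nonneg t))
    rw [ht0, ← h0, Function.update_eq_self]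
    exact hx
  · have hpos : 0 < |x k| := abs_pos.mpr h0
    have hr : |t / x k| ≤ 1 := by
      rw [abs_div, div_le_one hpos]
      exact ht
    have hr' := abs_le.mp hr
    have hl0 : 0 ≤ (1 + t / x k) / 2 := by linarith [hr'.1]
    have hl1 : 0 ≤ (1 - t / x k) / 2 := by linarith [hr'.2]
    have hl : (1 + t / x k) / 2 + (1 - t / x k) / 2 = 1 := by ring
    have h := hc hx (hflip x hx) hl0 hl1 hl
    have e : Function.update x k t
        = ((1 + t / x k) / 2) • x + ((1 - t / x k) / 2) • Function.update x k (-(x k)) := by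
      funext j
      by_cases hj : j = k
      · subst hj
        simp only [Function.update_self, Pi.add_apply, Pi.smul_apply, smul_eq_mul]
        field_simp
        ring
      · simp only [Function.update_of_ne hj, Pi.add_apply, Pi.smul_apply, smul_eq_mul]
        rw [← add_mul, hl, one_mul]
    rw [e]
    exact h

/-- An unconditional convex set contains every point whose coordinates are dominated in
absolute value by those of one of its points. -/
lemma mem_of_abs_le {K : Set (Fin n → ℝ)} (hc : Convex ℝ K)
    (hs : ∀ i : Fin n, ∀ x ∈ K, Function.update x i (-(x i)) ∈ K) {x y : Fin n → ℝ}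
    (hx : x ∈ K) (hxy : ∀ i, |y i| ≤ |x i|) : y ∈ K := by
  have key : ∀ s : Finset (Fin n), (fun i => if i ∈ s then y i else x i) ∈ K := by
    intro s
    induction s using Finset.induction_on with
    | empty =>
      simpa using hx
    | insert a s ha ih =>
      have h := update_mem_of_abs_le hc a (hs a) ih (t := y a) (by
        simp only [ha, if_false]
        exact hxy a)
      have e : (fun i => if i ∈ insert a s then y i else x i)
          = Function.update (fun i => if i ∈ s then y i else x i) a (y a) := by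
        funext j
        by_cases hj : j = a
        · subst hj
          simp
        · simp [Finset.mem_insert, hj]
      rw [e]
      exact h
  have h := key Finset.univ
  simpa using h

/-- The part of a set in the closed positive orthant. -/
def posPart (K : Set (Fin n → ℝ)) : Set (Fin n → ℝ) := K ∩ {x | ∀ i, 0 ≤ x i}

lemma posPart_subset (K : Set (Fin n → ℝ)) : posPart K ⊆ K := inter_subset_left

lemma posPart_nonneg {K : Set (Fin n → ℝ)} {x : Fin n → ℝ} (hx : x ∈ posPart K) (i : Fin n) :
    0 ≤ x i := hx.2 i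

lemma isClosed_orthant : IsClosed {x : Fin n → ℝ | ∀ i, 0 ≤ x i} := by
  have h : {x : Fin n → ℝ | ∀ i, 0 ≤ x i} = ⋂ i : Fin n, {x | 0 ≤ x i} := by
    ext x
    simp
  rw [h]
  exact isClosed_iInter fun i => isClosed_le continuous_const (continuous_apply i)

lemma isCompact_posPart {K : Set (Fin n → ℝ)} (hK : IsCompact K) : IsCompact (posPart K) :=
  hK.inter_right isClosed_orthant

lemma convex_posPart {K : Set (Fin n → ℝ)} (hc : Convex ℝ K) : Convex ℝ (posPart K) := by
  refine hc.inter ?_
  intro x hx y hy a b ha hb _ i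
  have h1 : 0 ≤ x i := hx i
  have h2 : 0 ≤ y i := hy i
  simp only [Pi.add_apply, Pi.smul_apply, smul_eq_mul]
  positivity

/-- The positive part of an unconditional convex set is down-closed. -/
lemma posPart_down {K : Set (Fin n → ℝ)} (hc : Convex ℝ K)
    (hs : ∀ i : Fin n, ∀ x ∈ K, Function.update x i (-(x i)) ∈ K) :
    ∀ x ∈ posPart K, ∀ y : Fin n → ℝ, (∀ i, 0 ≤ y i) → (∀ i, y i ≤ x i) → y ∈ posPart K := by
  intro x hx y hy0 hyx
  refine ⟨mem_of_abs_le hc hs hx.1 (fun i => ?_), hy0⟩
  rw [abs_of_nonneg (hy0 i), abs_of_nonneg (hx.2 i)]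
  exact hyx i

/-- Folding an unconditional compact set in `ℝ³` onto the positive orthant: the integral of a
function invariant under all coordinate sign changes is eight times its integral over the
positive part. -/
theorem setIntegral_posPart_three {K : Set (Fin 3 → ℝ)} (hK : IsCompact K)
    (hs : ∀ i : Fin 3, ∀ x ∈ K, Function.update x i (-(x i)) ∈ K) (f : (Fin 3 → ℝ) → ℝ)
    (hf : IntegrableOn f K) (hfs : ∀ i : Fin 3, ∀ x, f (Function.update x i (-(x i))) = f x) :
    ∫ x in K, f x = 8 * ∫ x in posPart K, f x := by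
  have hH : ∀ i : Fin 3, MeasurableSet {x : Fin 3 → ℝ | 0 ≤ x i} := fun i =>
    measurableSet_le measurable_const (measurable_pi_apply i)
  have hK0 : MeasurableSet K := hK.measurableSet
  have hK1 : MeasurableSet (K ∩ {x : Fin 3 → ℝ | 0 ≤ x 0}) := hK0.inter (hH 0)
  have hK2 : MeasurableSet ((K ∩ {x : Fin 3 → ℝ | 0 ≤ x 0}) ∩ {x | 0 ≤ x 1}) := hK1.inter (hH 1)
  have e0 := setIntegral_fold hK0 0 (fun x hx => hs 0 x hx) f hf (fun x => hfs 0 x)
  have e1 := setIntegral_fold hK1 1 (fun x hx => ⟨hs 1 x hx.1, by
      show 0 ≤ signFlip 1 x 0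
      rw [signFlip_ne 1 x (by decide : (0 : Fin 3) ≠ 1)]
      exact hx.2⟩) f (hf.mono_set inter_subset_left) (fun x => hfs 1 x)
  have e2 := setIntegral_fold hK2 2 (fun x hx => ⟨⟨hs 2 x hx.1.1, by
      show 0 ≤ signFlip 2 x 0
      rw [signFlip_ne 2 x (by decide : (0 : Fin 3) ≠ 2)]
      exact hx.1.2⟩, by
      show 0 ≤ signFlip 2 x 1
      rw [signFlip_ne 2 x (by decide : (1 : Fin 3) ≠ 2)]
      exact hx.2⟩) f
    (hf.mono_set (inter_subset_left.trans inter_subset_left)) (fun x => hfs 2 x)
  have hset : ((K ∩ {x : Fin 3 → ℝ | 0 ≤ x 0}) ∩ {x | 0 ≤ x 1}) ∩ {x | 0 ≤ x 2} = posPart K := by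
    ext x
    simp only [posPart, mem_inter_iff, mem_ofPred_eq]
    constructor
    · rintro ⟨⟨⟨hx, h0⟩, h1⟩, h2⟩
      refine ⟨hx, fun i => ?_⟩
      fin_cases i
      · exact h0
      · exact h1
      · exact h2
    · rintro ⟨hx, h⟩
      exact ⟨⟨⟨hx, h 0⟩, h 1⟩, h 2⟩
  rw [hset] at e2
  rw [e0, e1, e2]
  ring

/-- Volume of an unconditional compact set in `ℝ³` is eight times that of its positive part. -/
theorem vol_posPart_three {K : Set (Fin 3 → ℝ)} (hK : IsCompact K)
    (hs : ∀ i : Fin 3, ∀ x ∈ K, Function.update x i (-(x i)) ∈ K) :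
    vol K = 8 * vol (posPart K) := by
  have h := setIntegral_posPart_three hK hs (fun _ => (1:ℝ))
    (integrableOn_const hK.measure_lt_top.ne) (fun _ _ => rfl)
  rw [setIntegral_const, setIntegral_const] at h
  simpa [vol, Measure.real] using h

/-- First absolute moments of an unconditional compact set in `ℝ³` are eight times the first
moments of its positive part. -/
theorem abs_moment_posPart_three {K : Set (Fin 3 → ℝ)} (hK : IsCompact K)
    (hs : ∀ i : Fin 3, ∀ x ∈ K, Function.update x i (-(x i)) ∈ K) (i : Fin 3) :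
    ∫ x in K, |x i| = 8 * ∫ x in posPart K, x i := by
  have hcont : Continuous (fun x : Fin 3 → ℝ => |x i|) := (continuous_apply i).abs
  have h := setIntegral_posPart_three hK hs (fun x => |x i|) (hcont.continuousOn.integrableOn_compact hK)
    (fun j x => by
      by_cases hj : i = j
      · subst hj
        simp
      · simp [Function.update_of_ne hj])
  rw [h]
  congr 1
  apply setIntegral_congr_fun (isCompact_posPart hK).measurableSet
  intro x hx
  exact abs_of_nonneg (hx.2 i)

end Vale.Agent.Lib.P254
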