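import Vale.Agent.Lib.P254.Unc.Defs
import Vale.Agent.Lib.P254.Unc.PosPart
import Vale.Agent.Lib.P254.Sym.Berwald3
import Vale.Agent.Lib.P254.Sym.Axis

open MeasureTheory Set

namespace Vale.Agent.Lib.P254

/-- The positive part of an unconditional compact convex set is a convex corner. -/
theorem corner_posPart {n : ℕ} {K : Set (Fin n → ℝ)} (hK : IsCompact K) (hc : Convex ℝ K)
    (hs : ∀ i : Fin n, ∀ x ∈ K, Function.update x i (-(x i)) ∈ K) : Corner (posPart K) :=
  ⟨isCompact_posPart hK, convex_posPart hc, fun _ hx i => posPart_nonneg hx i, posPart_down hc hs⟩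

/-- Second moments are nonnegative. -/
theorem dim3_m2_nonneg {n : ℕ} (K : Set (Fin n → ℝ)) (i : Fin n) : 0 ≤ m2 K i :=
  integral_nonneg fun x => sq_nonneg (x i)

/-- From the centroid inequality of the positive part to the product of the first absolute
moments of an unconditional compact convex set in `ℝ³`. -/
theorem dim3_abs_prod_le {K : Set (Fin 3 → ℝ)} (hK : IsCompact K)
    (hs : ∀ i : Fin 3, ∀ x ∈ K, Function.update x i (-(x i)) ∈ K)
    (hI2 : 8 * ((∫ x in posPart K, x 0) * (∫ x in posPart K, x 1) * (∫ x in posPart K, x 2))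
      ≤ (vol (posPart K)) ^ 4) :
    64 * ((∫ x in K, |x 0|) * (∫ x in K, |x 1|) * (∫ x in K, |x 2|)) ≤ (vol K) ^ 4 := by
  rw [abs_moment_posPart_three hK hs 0, abs_moment_posPart_three hK hs 1,
    abs_moment_posPart_three hK hs 2, vol_posPart_three hK hs]
  nlinarith [hI2]

/-- The product of the second moments of an unconditional compact convex set in `ℝ³` of
positive volume, from the centroid inequality of its positive part. -/
theorem dim3_m2_prod_le {K : Set (Fin 3 → ℝ)} (hK : IsCompact K) (hc : Convex ℝ K)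
    (hs : ∀ i : Fin 3, ∀ x ∈ K, Function.update x i (-(x i)) ∈ K) (hV : 0 < vol K)
    (hI2 : 8 * ((∫ x in posPart K, x 0) * (∫ x in posPart K, x 1) * (∫ x in posPart K, x 2))
      ≤ (vol (posPart K)) ^ 4) :
    m2 K 0 * m2 K 1 * m2 K 2 ≤ (vol K) ^ 5 / 1000 := by
  have hb0 := berwald3 hK hc hs 0
  have hb1 := berwald3 hK hc hs 1
  have hb2 := berwald3 hK hc hs 2
  have hp := dim3_abs_prod_le hK hs hI2
  have ha0 : 0 ≤ ∫ x in K, |x 0| := integral_nonneg fun x => abs_nonneg (x 0)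
  have ha1 : 0 ≤ ∫ x in K, |x 1| := integral_nonneg fun x => abs_nonneg (x 1)
  have ha2 : 0 ≤ ∫ x in K, |x 2| := integral_nonneg fun x => abs_nonneg (x 2)
  have hx0 := dim3_m2_nonneg K 0
  have hx1 := dim3_m2_nonneg K 1
  have hx2 := dim3_m2_nonneg K 2
  set V := vol K with hVdef
  set a0 := ∫ x in K, |x 0|
  set a1 := ∫ x in K, |x 1|
  set a2 := ∫ x in K, |x 2|
  set x0 := m2 K 0
  set x1 := m2 K 1
  set x2 := m2 K 2
  have hP : 0 ≤ a0 * a1 * a2 := by positivity
  have h1 : (x0 * V) * (x1 * V) * (x2 * V)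
      ≤ (8 / 5 * a0 ^ 2) * (8 / 5 * a1 ^ 2) * (8 / 5 * a2 ^ 2) := by
    have h01 : (x0 * V) * (x1 * V) ≤ (8 / 5 * a0 ^ 2) * (8 / 5 * a1 ^ 2) :=
      mul_le_mul hb0 hb1 (by positivity) (by positivity)
    exact mul_le_mul h01 hb2 (by positivity) (by positivity)
  have h2 : (a0 * a1 * a2) ^ 2 ≤ (V ^ 4 / 64) ^ 2 :=
    pow_le_pow_left₀ hP (by linarith) 2
  have h3 : x0 * x1 * x2 * V ^ 3 ≤ V ^ 8 / 1000 := by
    calc x0 * x1 * x2 * V ^ 3 = (x0 * V) * (x1 * V) * (x2 * V) := by ring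
      _ ≤ (8 / 5 * a0 ^ 2) * (8 / 5 * a1 ^ 2) * (8 / 5 * a2 ^ 2) := h1
      _ = 512 / 125 * (a0 * a1 * a2) ^ 2 := by ring
      _ ≤ 512 / 125 * (V ^ 4 / 64) ^ 2 := by gcongr
      _ = V ^ 8 / 1000 := by ring
  have hV3 : 0 < V ^ 3 := by positivity
  have h4 : x0 * x1 * x2 * V ^ 3 ≤ (V ^ 5 / 1000) * V ^ 3 := by
    calc x0 * x1 * x2 * V ^ 3 ≤ V ^ 8 / 1000 := h3
      _ = (V ^ 5 / 1000) * V ^ 3 := by ring
  exact le_of_mul_le_mul_right h4 hV3

/-- The ratio `det Σ_K / |K|²` of a set in `ℝ³` invariant under the coordinate sign changes,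
in terms of the second moments. -/
theorem dim3_ratio_eq {K : Set (Fin 3 → ℝ)}
    (hs : ∀ i : Fin 3, ∀ x ∈ K, Function.update x i (-(x i)) ∈ K) (hV : 0 < vol K) :
    (covMatrix K).det / (vol K) ^ 2 = (m2 K 0 * m2 K 1 * m2 K 2) / (vol K) ^ 5 := by
  rw [covMatrix_of_flip hs, Matrix.det_diagonal, Fin.prod_univ_three]
  field_simp

/-- Switch for the final step: a bound on the product of the second moments of an unconditional
convex body in `ℝ³` gives the same bound on `det Σ_K / |K|²`. -/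
theorem dim3_ratio_le_of_prod {K : Set (Fin 3 → ℝ)} (hK : IsCompact K)
    (hi : (interior K).Nonempty)
    (hs : ∀ i : Fin 3, ∀ x ∈ K, Function.update x i (-(x i)) ∈ K) {c : ℝ}
    (hprod : m2 K 0 * m2 K 1 * m2 K 2 ≤ c * (vol K) ^ 5) :
    (covMatrix K).det / (vol K) ^ 2 ≤ c ∧ 0 ≤ (covMatrix K).det / (vol K) ^ 2 := by
  have hV : 0 < vol K := vol_pos_of_interior hK hi
  rw [dim3_ratio_eq hs hV]
  have hx0 := dim3_m2_nonneg K 0
  have hx1 := dim3_m2_nonneg K 1
  have hx2 := dim3_m2_nonneg K 2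
  refine ⟨?_, by positivity⟩
  rw [div_le_iff₀ (by positivity)]
  exact hprod

/-- Switch for the final step: a bound `det Σ_K / |K|² ≤ c` with `c < 9/8000` gives the strong
isotropic constant inequality in `ℝ³`. -/
theorem dim3_isotropic_lt_of_ratio {K : Set (Fin 3 → ℝ)} {c : ℝ} (hc9 : c < 9 / 8000)
    (hratio : (covMatrix K).det / (vol K) ^ 2 ≤ c ∧ 0 ≤ (covMatrix K).det / (vol K) ^ 2)
    (T : Fin 4 → Fin 3 → ℝ) (hT : AffineIndependent ℝ T) :
    isotropicConstant K < isotropicConstant (convexHull ℝ (Set.range T)) := by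
  obtain ⟨h1, h0⟩ := hratio
  unfold isotropicConstant
  rw [ratio_general_simplex T hT]
  have hnum : (9 / 8000 : ℝ) = simplexRatio 3 := by
    norm_num [simplexRatio, Nat.factorial]
  have hpos : (0:ℝ) < 1 / (2 * ((3 : ℕ) : ℝ)) := by norm_num
  exact Real.rpow_lt_rpow h0 (lt_of_le_of_lt h1 (by rw [← hnum]; exact hc9)) hpos

/-- Switch for the final step, strict form: a strict bound on the product of the second moments
of an unconditional convex body in `ℝ³` by `(9/8000) |K|^5` gives the strong isotropic constant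
inequality. -/
theorem dim3_isotropic_lt_of_prod_lt {K : Set (Fin 3 → ℝ)} (hK : IsCompact K)
    (hi : (interior K).Nonempty)
    (hs : ∀ i : Fin 3, ∀ x ∈ K, Function.update x i (-(x i)) ∈ K)
    (hprod : m2 K 0 * m2 K 1 * m2 K 2 < 9 / 8000 * (vol K) ^ 5)
    (T : Fin 4 → Fin 3 → ℝ) (hT : AffineIndependent ℝ T) :
    isotropicConstant K < isotropicConstant (convexHull ℝ (Set.range T)) := by
  have hV : 0 < vol K := vol_pos_of_interior hK hi
  have hx0 := dim3_m2_nonneg K 0
  have hx1 := dim3_m2_nonneg K 1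
  have hx2 := dim3_m2_nonneg K 2
  have hlt : (covMatrix K).det / (vol K) ^ 2 < 9 / 8000 := by
    rw [dim3_ratio_eq hs hV, div_lt_iff₀ (by positivity)]
    exact hprod
  have h0 : 0 ≤ (covMatrix K).det / (vol K) ^ 2 := by
    rw [dim3_ratio_eq hs hV]
    positivity
  unfold isotropicConstant
  rw [ratio_general_simplex T hT]
  have hnum : (9 / 8000 : ℝ) = simplexRatio 3 := by
    norm_num [simplexRatio, Nat.factorial]
  have hpos : (0:ℝ) < 1 / (2 * ((3 : ℕ) : ℝ)) := by norm_num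
  exact Real.rpow_lt_rpow h0 (by rw [← hnum]; exact hlt) hpos

end Vale.Agent.Lib.P254
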