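import Vale.Agent.Lib.P254.Unc.Defs
import Vale.Agent.Lib.P254.PWJ.Final

open MeasureTheory Set

namespace Vale.Agent.Lib.P254

/-- The centroid inequality for convex corners in dimension three: `|K|^4 ≥ 8 ∏ ∫_K x_i`,
that is `|K| ≥ 8 b_1 b_2 b_3` for the centroid `b` of `K`. Proved on the route (h76-6)
(`corner_I2_pwj`). -/
theorem corner_I2_three (K : Set (Fin 3 → ℝ)) (hK : Corner K) :
    8 * ((∫ x in K, x 0) * (∫ x in K, x 1) * (∫ x in K, x 2)) ≤ (vol K) ^ 4 :=
  corner_I2_pwj K hK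

end Vale.Agent.Lib.P254
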