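import Vale.Agent.Lib.P254.Defs

open MeasureTheory Set

namespace Vale.Agent.Lib.P254

/-- A convex corner: a compact convex subset of the closed positive orthant that contains, with
each of its points, every point of the orthant that is coordinatewise smaller. -/
def Corner {n : ℕ} (K : Set (Fin n → ℝ)) : Prop :=
  IsCompact K ∧ Convex ℝ K ∧ (∀ x ∈ K, ∀ i, 0 ≤ x i) ∧
    (∀ x ∈ K, ∀ y : Fin n → ℝ, (∀ i, 0 ≤ y i) → (∀ i, y i ≤ x i) → y ∈ K)

end Vale.Agent.Lib.P254
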