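import Vale.Agent.Lib.P254.Unc.Dim3
import Vale.Agent.Lib.P254.Unc.CornerI2

open MeasureTheory Set

namespace Vale.Agent.Lib.P254

/-- **Strong isotropic constant inequality for unconditional convex bodies in `ℝ³`**, with the
explicit bound `L_K^6 = det Σ_K / |K|² ≤ 1/1000`. -/
theorem uncond3_isotropic_lt (K : Set (Fin 3 → ℝ)) (hK : IsCompact K)
    (hc : Convex ℝ K) (hi : (interior K).Nonempty)
    (hsign : ∀ i : Fin 3, ∀ x ∈ K, Function.update x i (-(x i)) ∈ K)
    (T : Fin 4 → Fin 3 → ℝ) (hT : AffineIndependent ℝ T) :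
    isotropicConstant K < isotropicConstant (convexHull ℝ (Set.range T)) ∧
      (covMatrix K).det / (vol K) ^ 2 ≤ 1 / 1000 := by
  have hV : 0 < vol K := vol_pos_of_interior hK hi
  have hI2 := corner_I2_three (posPart K) (corner_posPart hK hc hsign)
  have hprod : m2 K 0 * m2 K 1 * m2 K 2 ≤ 1 / 1000 * (vol K) ^ 5 := by
    have h := dim3_m2_prod_le hK hc hsign hV hI2
    linarith
  have hratio := dim3_ratio_le_of_prod hK hi hsign hprod
  exact ⟨dim3_isotropic_lt_of_ratio (by norm_num) hratio T hT, hratio.1⟩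

end Vale.Agent.Lib.P254
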